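import Mathlib

/-!
# S0453 helper: sums over 2-subsets versus sums over ordered pairs (helper51)
-/

set_option autoImplicit false

namespace Crest.Agent.Helper51.S0453

open Finset

variable {V : Type*} [Fintype V] [DecidableEq V]

omit [Fintype V] in
/-- Equality of two unordered pairs given as finsets. -/
lemma pair_eq_pair_iff' {x y a b : V} :
    ({x, y} : Finset V) = {a, b} ↔ (x = a ∧ y = b) ∨ (x = b ∧ y = a) := by
  constructor
  · intro h
    have hx : x ∈ ({a, b} : Finset V) := h ▸ Finset.mem_insert_self x {y}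
    have hy : y ∈ ({a, b} : Finset V) := h ▸ Finset.mem_insert_of_mem (Finset.mem_singleton_self y)
    have ha : a ∈ ({x, y} : Finset V) := h ▸ Finset.mem_insert_self a {b}
    have hb : b ∈ ({x, y} : Finset V) := h ▸ Finset.mem_insert_of_mem (Finset.mem_singleton_self b)
    simp only [Finset.mem_insert, Finset.mem_singleton] at hx hy ha hb
    rcases hx with hx | hx <;> rcases hy with hy | hy
    · rcases hb with hb | hb
      · left; exact ⟨hx, hy.trans (hx.symm.trans hb.symm)⟩
      · left; exact ⟨hx, hb.symm⟩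
    · left; exact ⟨hx, hy⟩
    · right; exact ⟨hx, hy⟩
    · rcases ha with ha | ha
      · right; exact ⟨hx, hy.trans (hx.symm.trans ha.symm)⟩
      · right; exact ⟨hx, ha.symm⟩
  · rintro (⟨rfl, rfl⟩ | ⟨rfl, rfl⟩)
    · rfl
    · exact Finset.pair_comm _ _

/-- A sum over ordered pairs of distinct elements of a function of the unordered pair is twice
the sum over 2-subsets. -/
theorem sum_offDiag_pair (g : Finset V → ℝ) :
    ∑ p ∈ (univ : Finset V).offDiag, g {p.1, p.2}
      = 2 * ∑ U ∈ (univ : Finset V).powersetCard 2, g U := by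
  have hmaps : ∀ p ∈ (univ : Finset V).offDiag,
      ({p.1, p.2} : Finset V) ∈ (univ : Finset V).powersetCard 2 := by
    intro p hp
    rw [Finset.mem_offDiag] at hp
    rw [Finset.mem_powersetCard]
    exact ⟨Finset.subset_univ _, Finset.card_pair hp.2.2⟩
  rw [← Finset.sum_fiberwise_of_maps_to hmaps, Finset.mul_sum]
  refine Finset.sum_congr rfl (fun U hU => ?_)
  obtain ⟨a, b, hab, rfl⟩ := Finset.card_eq_two.1 (Finset.mem_powersetCard.1 hU).2
  have hfib : ((univ : Finset V).offDiag.filter
      (fun p : V × V => ({p.1, p.2} : Finset V) = {a, b})) = {(a, b), (b, a)} := by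
    ext ⟨x, y⟩
    simp only [Finset.mem_filter, Finset.mem_offDiag, Finset.mem_univ, true_and,
      Finset.mem_insert, Finset.mem_singleton, Prod.mk.injEq, pair_eq_pair_iff']
    constructor
    · rintro ⟨-, h⟩; exact h
    · rintro (⟨rfl, rfl⟩ | ⟨rfl, rfl⟩)
      · exact ⟨hab, Or.inl ⟨rfl, rfl⟩⟩
      · exact ⟨hab.symm, Or.inr ⟨rfl, rfl⟩⟩
  have hne : ((a, b) : V × V) ≠ (b, a) := by
    intro h
    exact hab (Prod.mk.inj h).1
  calc ∑ p ∈ (univ : Finset V).offDiag.filter
          (fun p : V × V => ({p.1, p.2} : Finset V) = {a, b}), g {p.1, p.2}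
      = ∑ p ∈ ({(a, b), (b, a)} : Finset (V × V)), g {p.1, p.2} := by rw [hfib]
    _ = g {a, b} + g {b, a} := Finset.sum_pair hne
    _ = 2 * g {a, b} := by rw [Finset.pair_comm b a]; ring

/-- Two-level version: ordered pairs of ordered pairs with disjoint supports versus ordered
pairs of disjoint 2-subsets. -/
theorem sum_offDiag_pair_disjoint (F : Finset V → Finset V → ℝ) :
    ∑ p ∈ (univ : Finset V).offDiag,
        ∑ q ∈ (univ : Finset V).offDiag.filter
          (fun q : V × V => Disjoint ({p.1, p.2} : Finset V) {q.1, q.2}),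
          F {p.1, p.2} {q.1, q.2}
      = 4 * ∑ U ∈ (univ : Finset V).powersetCard 2,
          ∑ U' ∈ ((univ : Finset V).powersetCard 2).filter (fun U' => Disjoint U U'),
            F U U' := by
  have h1 : ∀ U : Finset V,
      ∑ q ∈ (univ : Finset V).offDiag.filter
          (fun q : V × V => Disjoint U ({q.1, q.2} : Finset V)), F U {q.1, q.2}
        = 2 * ∑ U' ∈ ((univ : Finset V).powersetCard 2).filter (fun U' => Disjoint U U'),
            F U U' := by
    intro U
    rw [Finset.sum_filter, Finset.sum_filter]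
    exact sum_offDiag_pair (fun U' => if Disjoint U U' then F U U' else 0)
  have h2 := sum_offDiag_pair (fun U : Finset V =>
      2 * ∑ U' ∈ ((univ : Finset V).powersetCard 2).filter (fun U' => Disjoint U U'), F U U')
  calc ∑ p ∈ (univ : Finset V).offDiag,
        ∑ q ∈ (univ : Finset V).offDiag.filter
          (fun q : V × V => Disjoint ({p.1, p.2} : Finset V) {q.1, q.2}),
          F {p.1, p.2} {q.1, q.2}
      = ∑ p ∈ (univ : Finset V).offDiag,
          2 * ∑ U' ∈ ((univ : Finset V).powersetCard 2).filter
            (fun U' => Disjoint ({p.1, p.2} : Finset V) U'), F {p.1, p.2} U' :=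
        Finset.sum_congr rfl (fun p _ => h1 {p.1, p.2})
    _ = 2 * ∑ U ∈ (univ : Finset V).powersetCard 2,
          2 * ∑ U' ∈ ((univ : Finset V).powersetCard 2).filter (fun U' => Disjoint U U'),
            F U U' := h2
    _ = _ := by
        rw [← Finset.mul_sum]; ring

end Crest.Agent.Helper51.S0453
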