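import Crest.Agent.Helper65.Switch.Classes
import Crest.Agent.Helper51.S0453.Pairs

/-!
# S0453: the summation (DP) over disjoint pairs in the model (helper51)

`PROOF.md` section 6: summing the two-pair lemma (TPL) over all ordered pairs of disjoint
vertex pairs and bounding the `Bad` terms by the Johnson lemma gives
`∑_{disjoint (U,U')} ⟨R_U f, R_U' f⟩ ≥ 0`.

This file contains the definitions (`chi`, `E1`, `E2`, `Bad`, `TPLModel`, `JBModel`), the two
counting facts about switch edges and their diagonals, and the summation `dp_nonneg`.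
-/

set_option autoImplicit false

namespace Crest.Agent.Helper51.S0453

open Finset Crest.SwitchChain Crest.Agent.Helper65.Switch

variable {n : ℕ}

/-- The split indicator: `1` iff exactly one of `c`, `e` is adjacent to `a`. -/
noncomputable def chi (a c e : Fin n) (G : Finset (Edge n)) : ℝ := by
  classical exact if (adj G a c ↔ adj G a e) then 0 else 1

/-- Ordered switch pairs inside the classes of `U` (twice `Ecal_U`). -/
noncomputable def E1 (d : Fin n → ℕ) (U : Finset (Fin n)) (f : Finset (Edge n) → ℝ) : ℝ := by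
  classical
  exact ∑ G ∈ realizations d, ∑ G' ∈ (cls d U G).filter (fun G' => IsSwitch G G'),
    (f G - f G') ^ 2

/-- Ordered switch pairs inside the classes of both `U` and `U'` (twice `Ecal_{U,U'}`). -/
noncomputable def E2 (d : Fin n → ℕ) (U U' : Finset (Fin n)) (f : Finset (Edge n) → ℝ) : ℝ := by
  classical
  exact ∑ G ∈ realizations d,
    ∑ G' ∈ (cls d U G ∩ cls d U' G).filter (fun G' => IsSwitch G G'), (f G - f G') ^ 2

/-- The `Bad` term of the two-pair lemma: the sum over the classes `K` of `~_{ab}` in which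
`c` and `e` are both free of `|K| Cov_K(f, chi)² / π_K`, written as a sum over graphs. -/
noncomputable def Bad (d : Fin n → ℕ) (a b c e : Fin n) (f : Finset (Edge n) → ℝ) : ℝ := by
  classical
  exact ∑ G ∈ realizations d,
    if (adj G a c ↔ ¬ adj G b c) ∧ (adj G a e ↔ ¬ adj G b e) then
      (((cls d {a, b} G).card : ℝ) * ∑ G' ∈ cls d {a, b} G, f G' * chi a c e G'
          - (∑ G' ∈ cls d {a, b} G, f G') * ∑ G' ∈ cls d {a, b} G, chi a c e G') ^ 2
        / (((cls d {a, b} G).card : ℝ) ^ 3 * ∑ G' ∈ cls d {a, b} G, chi a c e G')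
    else 0

/-- The two-pair lemma (TPL) in the model. -/
def TPLModel (d : Fin n → ℕ) : Prop :=
  ∀ a b c e : Fin n, a ≠ b → c ≠ e → a ≠ c → a ≠ e → b ≠ c → b ≠ e →
    ∀ f : Finset (Edge n) → ℝ,
      E2 d {a, b} {c, e} f / 2 - Bad d a b c e f - Bad d c e a b f
        ≤ 2 * ∑ G ∈ realizations d, Rop d {a, b} f G * Rop d {c, e} f G

/-- The Johnson bound for the `Bad` terms of one pair, in the model. -/
def JBModel (d : Fin n → ℕ) : Prop :=
  ∀ a b : Fin n, a ≠ b → ∀ f : Finset (Edge n) → ℝ,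
    ∑ q ∈ (univ : Finset (Fin n)).offDiag.filter
        (fun q : Fin n × Fin n => Disjoint ({a, b} : Finset (Fin n)) {q.1, q.2}),
      Bad d a b q.1 q.2 f ≤ 1 / 2 * E1 d {a, b} f

/-! ### `if`-forms of the energies -/

lemma E1_eq (d : Fin n → ℕ) (U : Finset (Fin n)) (f : Finset (Edge n) → ℝ)
    [DecidableRel (IsSwitch (n := n))] :
    E1 d U f = ∑ G ∈ realizations d, ∑ G' ∈ realizations d,
      if offU U G' = offU U G ∧ IsSwitch G G' then (f G - f G') ^ 2 else 0 := by
  unfold E1
  refine Finset.sum_congr rfl fun G _ => ?_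
  unfold cls
  rw [Finset.filter_filter, Finset.sum_filter]
  refine Finset.sum_congr rfl fun G' _ => ?_
  by_cases h : offU U G' = offU U G ∧ IsSwitch G G'
  · rw [if_pos h, if_pos h]
  · rw [if_neg h, if_neg h]

lemma E2_eq (d : Fin n → ℕ) (U U' : Finset (Fin n)) (f : Finset (Edge n) → ℝ)
    [DecidableRel (IsSwitch (n := n))] :
    E2 d U U' f = ∑ G ∈ realizations d, ∑ G' ∈ realizations d,
      if (offU U G' = offU U G ∧ offU U' G' = offU U' G) ∧ IsSwitch G G'
        then (f G - f G') ^ 2 else 0 := by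
  unfold E2
  refine Finset.sum_congr rfl fun G _ => ?_
  unfold cls
  rw [← Finset.filter_and, Finset.filter_filter, Finset.sum_filter]
  refine Finset.sum_congr rfl fun G' _ => ?_
  by_cases h : (offU U G' = offU U G ∧ offU U' G' = offU U' G) ∧ IsSwitch G G'
  · rw [if_pos h, if_pos h]
  · rw [if_neg h, if_neg h]

lemma switchEnergy_eq (d : Fin n → ℕ) (f : Finset (Edge n) → ℝ)
    [DecidableRel (IsSwitch (n := n))] :
    switchEnergy d f = ∑ G ∈ realizations d, ∑ G' ∈ realizations d,
      if IsSwitch G G' then (f G - f G') ^ 2 else 0 := by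
  rw [switchEnergy_def]
  refine Finset.sum_congr rfl fun G _ => ?_
  rw [Finset.sum_filter]

/-! ### switches and their diagonals -/

/-- A switch pair lies in the classes of two disjoint pairs (its diagonals). -/
lemma IsSwitch.exists_diagonals {G G' : Finset (Edge n)} (h : IsSwitch G G') :
    ∃ U₁ U₂ : Finset (Fin n), U₁ ∈ (univ : Finset (Fin n)).powersetCard 2 ∧
      U₂ ∈ (univ : Finset (Fin n)).powersetCard 2 ∧ Disjoint U₁ U₂ ∧
      offU U₁ G' = offU U₁ G ∧ offU U₂ G' = offU U₂ G := by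
  obtain ⟨p, q, r, s, hpq, hpr, hps, hqr, hqs, hrs, -, -, rfl⟩ := h.exists_pm2
  refine ⟨{p, s}, {q, r}, ?_, ?_, ?_, ?_, ?_⟩
  · rw [Finset.mem_powersetCard]
    exact ⟨Finset.subset_univ _, Finset.card_pair hps⟩
  · rw [Finset.mem_powersetCard]
    exact ⟨Finset.subset_univ _, Finset.card_pair hqr⟩
  · rw [Finset.disjoint_left]
    intro x hx hx'
    simp only [Finset.mem_insert, Finset.mem_singleton] at hx hx'
    rcases hx with rfl | rfl <;> rcases hx' with h' | h'
    · exact hpq h'
    · exact hpr h'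
    · exact hqs h'.symm
    · exact hrs h'.symm
  · rw [offU_eq_iff]
    intro x y hx hy
    simp only [Finset.mem_insert, Finset.mem_singleton, not_or] at hx hy
    by_cases hxy : x = y
    · subst hxy
      exact ⟨fun hh => absurd hh not_adj_self, fun hh => absurd hh not_adj_self⟩
    · rw [adj_iff hxy, adj_iff hxy, mem_switch]
      simp only [mkE_eq_iff, Ne]
      tauto
  · rw [offU_eq_iff]
    intro x y hx hy
    simp only [Finset.mem_insert, Finset.mem_singleton, not_or] at hx hy
    by_cases hxy : x = y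
    · subst hxy
      exact ⟨fun hh => absurd hh not_adj_self, fun hh => absurd hh not_adj_self⟩
    · rw [adj_iff hxy, adj_iff hxy, mem_switch]
      simp only [mkE_eq_iff, Ne]
      tauto

/-! ### abstract counting -/

section Abstract

variable {α β γ δ : Type*}

lemma sum_comm4 (s : Finset α) (t : α → Finset β) (u : Finset γ) (v : Finset δ)
    (F : α → β → γ → δ → ℝ) :
    ∑ a ∈ s, ∑ b ∈ t a, ∑ c ∈ u, ∑ e ∈ v, F a b c e
      = ∑ c ∈ u, ∑ e ∈ v, ∑ a ∈ s, ∑ b ∈ t a, F a b c e := by
  calc ∑ a ∈ s, ∑ b ∈ t a, ∑ c ∈ u, ∑ e ∈ v, F a b c e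
      = ∑ a ∈ s, ∑ c ∈ u, ∑ b ∈ t a, ∑ e ∈ v, F a b c e :=
        Finset.sum_congr rfl fun a _ => Finset.sum_comm
    _ = ∑ c ∈ u, ∑ a ∈ s, ∑ b ∈ t a, ∑ e ∈ v, F a b c e := Finset.sum_comm
    _ = ∑ c ∈ u, ∑ a ∈ s, ∑ e ∈ v, ∑ b ∈ t a, F a b c e :=
        Finset.sum_congr rfl fun c _ => Finset.sum_congr rfl fun a _ => Finset.sum_comm
    _ = ∑ c ∈ u, ∑ e ∈ v, ∑ a ∈ s, ∑ b ∈ t a, F a b c e :=
        Finset.sum_congr rfl fun c _ => Finset.sum_comm

lemma sum_comm3 (s : Finset α) (u : Finset γ) (v : Finset δ) (F : α → γ → δ → ℝ) :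
    ∑ a ∈ s, ∑ c ∈ u, ∑ e ∈ v, F a c e = ∑ c ∈ u, ∑ e ∈ v, ∑ a ∈ s, F a c e := by
  calc ∑ a ∈ s, ∑ c ∈ u, ∑ e ∈ v, F a c e
      = ∑ c ∈ u, ∑ a ∈ s, ∑ e ∈ v, F a c e := Finset.sum_comm
    _ = ∑ c ∈ u, ∑ e ∈ v, ∑ a ∈ s, F a c e :=
        Finset.sum_congr rfl fun c _ => Finset.sum_comm

/-- two distinct good indices contribute at least `2 h`. -/
lemma two_mul_le_sum_pairs [DecidableEq α] (P : Finset α) (D : α → α → Prop) [DecidableRel D]
    (c : α → Prop) [DecidablePred c] (h : ℝ) (hh : 0 ≤ h) {U₁ U₂ : α} (h1 : U₁ ∈ P)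
    (h2 : U₂ ∈ P) (hne : U₁ ≠ U₂) (hD : D U₁ U₂) (hD' : D U₂ U₁) (c1 : c U₁) (c2 : c U₂) :
    2 * h ≤ ∑ U ∈ P, ∑ U' ∈ P.filter (fun U' => D U U'), if c U ∧ c U' then h else 0 := by
  have hnn : ∀ U ∈ P, 0 ≤ ∑ U' ∈ P.filter (fun U' => D U U'), if c U ∧ c U' then h else 0 :=
    fun U _ => Finset.sum_nonneg fun U' _ => by split_ifs <;> simp [hh]
  have hpair : ({U₁, U₂} : Finset α) ⊆ P := by
    intro x hx
    simp only [Finset.mem_insert, Finset.mem_singleton] at hx
    rcases hx with rfl | rfl <;> assumption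
  have s1 : h ≤ ∑ U' ∈ P.filter (fun U' => D U₁ U'), if c U₁ ∧ c U' then h else 0 := by
    have := Finset.single_le_sum (f := fun U' => if c U₁ ∧ c U' then h else 0)
      (s := P.filter (fun U' => D U₁ U')) (fun U' _ => by split_ifs <;> simp [hh])
      (Finset.mem_filter.2 ⟨h2, hD⟩)
    simpa only [if_pos (And.intro c1 c2)] using this
  have s2 : h ≤ ∑ U' ∈ P.filter (fun U' => D U₂ U'), if c U₂ ∧ c U' then h else 0 := by
    have := Finset.single_le_sum (f := fun U' => if c U₂ ∧ c U' then h else 0)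
      (s := P.filter (fun U' => D U₂ U')) (fun U' _ => by split_ifs <;> simp [hh])
      (Finset.mem_filter.2 ⟨h1, hD'⟩)
    simpa only [if_pos (And.intro c2 c1)] using this
  calc 2 * h = h + h := by ring
    _ ≤ (∑ U' ∈ P.filter (fun U' => D U₁ U'), if c U₁ ∧ c U' then h else 0)
          + ∑ U' ∈ P.filter (fun U' => D U₂ U'), if c U₂ ∧ c U' then h else 0 :=
        add_le_add s1 s2
    _ = ∑ U ∈ ({U₁, U₂} : Finset α),
          ∑ U' ∈ P.filter (fun U' => D U U'), if c U ∧ c U' then h else 0 :=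
        (Finset.sum_pair (f := fun U => ∑ U' ∈ P.filter (fun U' => D U U'),
          if c U ∧ c U' then h else 0) hne).symm
    _ ≤ _ := Finset.sum_le_sum_of_subset_of_nonneg hpair (fun U hU _ => hnn U hU)

/-- at most two good indices contribute at most `2 h`. -/
lemma sum_le_two_mul (P : Finset α) (c : α → Prop) [DecidablePred c] (h : ℝ) (hh : 0 ≤ h)
    (hcard : (P.filter c).card ≤ 2) :
    ∑ U ∈ P, (if c U then h else 0) ≤ 2 * h := by
  rw [← Finset.sum_filter, Finset.sum_const, nsmul_eq_mul]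
  have : ((P.filter c).card : ℝ) ≤ 2 := by exact_mod_cast hcard
  exact mul_le_mul_of_nonneg_right this hh

end Abstract

/-! ### the two counting facts -/

/-- (A) every ordered switch pair is counted (at least) twice among the ordered pairs of
disjoint vertex pairs. -/
lemma two_mul_switchEnergy_le (d : Fin n → ℕ) (f : Finset (Edge n) → ℝ) :
    2 * switchEnergy d f ≤ ∑ U ∈ (univ : Finset (Fin n)).powersetCard 2,
      ∑ U' ∈ ((univ : Finset (Fin n)).powersetCard 2).filter (fun U' => Disjoint U U'),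
        E2 d U U' f := by
  classical
  rw [switchEnergy_eq]
  simp_rw [E2_eq]
  rw [sum_comm4, Finset.mul_sum]
  refine Finset.sum_le_sum fun G _ => ?_
  rw [Finset.mul_sum]
  refine Finset.sum_le_sum fun G' _ => ?_
  by_cases hsw : IsSwitch G G'
  · obtain ⟨U₁, U₂, h1, h2, hdis, e1, e2⟩ := IsSwitch.exists_diagonals hsw
    rw [if_pos hsw]
    have hne : U₁ ≠ U₂ := by
      rintro rfl
      have hemp : U₁ = ∅ := (Finset.disjoint_self_iff_empty U₁).1 hdis
      have hc := (Finset.mem_powersetCard.1 h1).2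
      rw [hemp] at hc
      simp at hc
    have := two_mul_le_sum_pairs ((univ : Finset (Fin n)).powersetCard 2)
      (fun U U' => Disjoint U U') (fun U => offU U G' = offU U G) ((f G - f G') ^ 2)
      (sq_nonneg _) h1 h2 hne hdis hdis.symm e1 e2
    simpa only [hsw, and_true] using this
  · rw [if_neg hsw, mul_zero]
    exact Finset.sum_nonneg fun U _ => Finset.sum_nonneg fun U' _ => by
      split_ifs <;> positivity

/-- (B) every ordered switch pair lies in the classes of at most two pairs. -/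
lemma sum_E1_le (d : Fin n → ℕ) (f : Finset (Edge n) → ℝ) :
    ∑ U ∈ (univ : Finset (Fin n)).powersetCard 2, E1 d U f ≤ 2 * switchEnergy d f := by
  classical
  rw [switchEnergy_eq]
  simp_rw [E1_eq]
  rw [sum_comm3, Finset.mul_sum]
  refine Finset.sum_le_sum fun G _ => ?_
  rw [Finset.mul_sum]
  refine Finset.sum_le_sum fun G' _ => ?_
  by_cases hsw : IsSwitch G G'
  · rw [if_pos hsw]
    have := sum_le_two_mul ((univ : Finset (Fin n)).powersetCard 2)
      (fun U => offU U G' = offU U G) ((f G - f G') ^ 2) (sq_nonneg _) (switch_diagonals hsw)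
    simpa only [hsw, and_true] using this
  · rw [if_neg hsw, mul_zero]
    refine le_of_eq (Finset.sum_eq_zero fun U _ => ?_)
    rw [if_neg (fun h => hsw h.2)]

/-! ### the summation (DP) -/

/-- **(DP) in the model**: the sum of `⟨R_U f, R_U' f⟩` over ordered pairs of disjoint vertex
pairs is nonnegative, given the two-pair lemma and the Johnson bound for the `Bad` terms. -/
theorem dp_nonneg {d : Fin n → ℕ} (hT : TPLModel d) (hJ : JBModel d)
    (f : Finset (Edge n) → ℝ) :
    0 ≤ ∑ U ∈ (univ : Finset (Fin n)).powersetCard 2,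
      ∑ U' ∈ ((univ : Finset (Fin n)).powersetCard 2).filter (fun U' => Disjoint U U'),
        ∑ G ∈ realizations d, Rop d U f G * Rop d U' f G := by
  classical
  have h4 := sum_offDiag_pair_disjoint (V := Fin n)
    (fun U U' => ∑ G ∈ realizations d, Rop d U f G * Rop d U' f G)
  have h4E := sum_offDiag_pair_disjoint (V := Fin n) (fun U U' => E2 d U U' f)
  have hA := two_mul_switchEnergy_le d f
  have hB := sum_E1_le d f
  have h2E := sum_offDiag_pair (V := Fin n) (fun U => E1 d U f)
  have hsE := switchEnergy_nonneg d f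
  -- termwise (TPL)
  have hterm : ∀ p ∈ (univ : Finset (Fin n)).offDiag,
      ∀ q ∈ (univ : Finset (Fin n)).offDiag.filter
        (fun q : Fin n × Fin n => Disjoint ({p.1, p.2} : Finset (Fin n)) {q.1, q.2}),
      E2 d {p.1, p.2} {q.1, q.2} f / 2 - Bad d p.1 p.2 q.1 q.2 f - Bad d q.1 q.2 p.1 p.2 f
        ≤ 2 * ∑ G ∈ realizations d, Rop d {p.1, p.2} f G * Rop d {q.1, q.2} f G := by
    intro p hp q hq
    rw [Finset.mem_filter] at hq
    have hpne := (Finset.mem_offDiag.1 hp).2.2
    have hqne := (Finset.mem_offDiag.1 hq.1).2.2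
    have hd := Finset.disjoint_left.1 hq.2
    have h1 := hd (Finset.mem_insert_self p.1 {p.2})
    have h2 := hd (Finset.mem_insert_of_mem (Finset.mem_singleton_self p.2))
    simp only [Finset.mem_insert, Finset.mem_singleton, not_or] at h1 h2
    exact hT p.1 p.2 q.1 q.2 hpne hqne h1.1 h1.2 h2.1 h2.2 f
  have hsum := Finset.sum_le_sum (fun p hp => Finset.sum_le_sum (hterm p hp))
  simp only [Finset.sum_sub_distrib, ← Finset.mul_sum, ← Finset.sum_div] at hsum
  rw [h4, h4E] at hsum
  -- the `Bad` sums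
  have hB1 : ∑ p ∈ (univ : Finset (Fin n)).offDiag,
      ∑ q ∈ (univ : Finset (Fin n)).offDiag.filter
        (fun q : Fin n × Fin n => Disjoint ({p.1, p.2} : Finset (Fin n)) {q.1, q.2}),
        Bad d p.1 p.2 q.1 q.2 f ≤ 2 * switchEnergy d f := by
    calc ∑ p ∈ (univ : Finset (Fin n)).offDiag,
          ∑ q ∈ (univ : Finset (Fin n)).offDiag.filter
            (fun q : Fin n × Fin n => Disjoint ({p.1, p.2} : Finset (Fin n)) {q.1, q.2}),
            Bad d p.1 p.2 q.1 q.2 f
        ≤ ∑ p ∈ (univ : Finset (Fin n)).offDiag, 1 / 2 * E1 d {p.1, p.2} f :=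
          Finset.sum_le_sum fun p hp => hJ p.1 p.2 (Finset.mem_offDiag.1 hp).2.2 f
      _ = 1 / 2 * (2 * ∑ U ∈ (univ : Finset (Fin n)).powersetCard 2, E1 d U f) := by
          rw [← Finset.mul_sum, h2E]
      _ ≤ 2 * switchEnergy d f := by linarith
  have hB2 : ∑ p ∈ (univ : Finset (Fin n)).offDiag,
      ∑ q ∈ (univ : Finset (Fin n)).offDiag.filter
        (fun q : Fin n × Fin n => Disjoint ({p.1, p.2} : Finset (Fin n)) {q.1, q.2}),
        Bad d q.1 q.2 p.1 p.2 f
      = ∑ p ∈ (univ : Finset (Fin n)).offDiag,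
      ∑ q ∈ (univ : Finset (Fin n)).offDiag.filter
        (fun q : Fin n × Fin n => Disjoint ({p.1, p.2} : Finset (Fin n)) {q.1, q.2}),
        Bad d p.1 p.2 q.1 q.2 f := by
    simp_rw [Finset.sum_filter]
    rw [Finset.sum_comm]
    refine Finset.sum_congr rfl fun p _ => Finset.sum_congr rfl fun q _ => ?_
    by_cases hd : Disjoint ({p.1, p.2} : Finset (Fin n)) {q.1, q.2}
    · rw [if_pos hd, if_pos hd.symm]
    · rw [if_neg hd, if_neg (fun h => hd h.symm)]
  rw [hB2] at hsum
  linarith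

end Crest.Agent.Helper51.S0453
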