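import Mathlib

/-!
# S0453 / WP-E2 (insurance track, helper51): the abstract two-pair lemma on explicit tables

* `rect_nonneg`   : the product fibre (E2a): `0 ≤ ∑ (F - colmean) (F - rowmean)` on a rectangle;
* `diamond_core`  : the diamond fibre (E2b) on the concrete diamond
  `(A1 × C1 × Bool) ⊔ (A0 × C1) ⊔ (A1 × C0)`.

All class averages enter through their defining relations `card * mean = sum`, so that no
nonemptiness hypotheses are needed (truncated diamonds are covered).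
-/

set_option autoImplicit false

namespace Crest.Agent.Helper51.S0453

open Finset

section Tools

variable {ι : Type*}

/-- one-way decomposition `∑ G² = |S| μ² + ∑ (G - μ)²` for the mean `μ`. -/
lemma sum_sq_eq_card_mul_sq_add (S : Finset ι) (G : ι → ℝ) (μ : ℝ)
    (hμ : (S.card : ℝ) * μ = ∑ i ∈ S, G i) :
    ∑ i ∈ S, G i ^ 2 = (S.card : ℝ) * μ ^ 2 + ∑ i ∈ S, (G i - μ) ^ 2 := by
  have h1 : ∑ i ∈ S, (G i - μ) ^ 2
      = ∑ i ∈ S, G i ^ 2 - 2 * μ * ∑ i ∈ S, G i + (S.card : ℝ) * μ ^ 2 := by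
    calc ∑ i ∈ S, (G i - μ) ^ 2 = ∑ i ∈ S, (G i ^ 2 - 2 * μ * G i + μ ^ 2) :=
          Finset.sum_congr rfl fun i _ => by ring
      _ = ∑ i ∈ S, G i ^ 2 - 2 * μ * ∑ i ∈ S, G i + (S.card : ℝ) * μ ^ 2 := by
          rw [Finset.sum_add_distrib, Finset.sum_sub_distrib, ← Finset.mul_sum,
            Finset.sum_const, nsmul_eq_mul]
  rw [h1, ← hμ]
  ring

/-- Cauchy–Schwarz in mean form, valid also for the empty set. -/
lemma card_mul_sq_le_sum_sq (S : Finset ι) (G : ι → ℝ) (μ : ℝ)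
    (hμ : (S.card : ℝ) * μ = ∑ i ∈ S, G i) :
    (S.card : ℝ) * μ ^ 2 ≤ ∑ i ∈ S, G i ^ 2 := by
  rw [sum_sq_eq_card_mul_sq_add S G μ hμ]
  have : 0 ≤ ∑ i ∈ S, (G i - μ) ^ 2 := Finset.sum_nonneg fun i _ => sq_nonneg _
  linarith

end Tools

section Rect

variable {α γ : Type*}

/-- Expansion of the bilinear residual sum over a rectangle. -/
lemma sum_resid_mul (S : Finset α) (T : Finset γ) (F : α → γ → ℝ) (k : γ → ℝ) (r : α → ℝ) :
    ∑ A ∈ S, ∑ C ∈ T, (F A C - k C) * (F A C - r A)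
      = ∑ A ∈ S, ∑ C ∈ T, F A C ^ 2 - ∑ C ∈ T, k C * ∑ A ∈ S, F A C
        - ∑ A ∈ S, r A * ∑ C ∈ T, F A C + (∑ C ∈ T, k C) * ∑ A ∈ S, r A := by
  have h1 : ∑ A ∈ S, ∑ C ∈ T, k C * F A C = ∑ C ∈ T, k C * ∑ A ∈ S, F A C := by
    rw [Finset.sum_comm]
    exact Finset.sum_congr rfl fun C _ => (Finset.mul_sum _ _ _).symm
  have h2 : ∑ A ∈ S, ∑ C ∈ T, r A * F A C = ∑ A ∈ S, r A * ∑ C ∈ T, F A C :=
    Finset.sum_congr rfl fun A _ => (Finset.mul_sum _ _ _).symm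
  have h3 : ∑ A ∈ S, ∑ C ∈ T, k C * r A = (∑ C ∈ T, k C) * ∑ A ∈ S, r A := by
    rw [Finset.sum_comm, Finset.sum_mul_sum]
  rw [← h1, ← h2, ← h3, ← Finset.sum_sub_distrib, ← Finset.sum_sub_distrib,
    ← Finset.sum_add_distrib]
  refine Finset.sum_congr rfl fun A _ => ?_
  rw [← Finset.sum_sub_distrib, ← Finset.sum_sub_distrib, ← Finset.sum_add_distrib]
  exact Finset.sum_congr rfl fun C _ => by ring

/-- Row-centred lower bound: with row means `r` and the centred column means `ν`,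
`∑∑ F² - ∑_A r_A R_A ≥ |S| ∑_C ν_C²`. -/
lemma rowcentred_lower (S : Finset α) (T : Finset γ) (F : α → γ → ℝ) (r : α → ℝ) (ν : γ → ℝ)
    (hr : ∀ A ∈ S, (T.card : ℝ) * r A = ∑ C ∈ T, F A C)
    (hν : ∀ C ∈ T, (S.card : ℝ) * ν C = ∑ A ∈ S, F A C - ∑ A ∈ S, r A) :
    (S.card : ℝ) * ∑ C ∈ T, ν C ^ 2
      ≤ ∑ A ∈ S, ∑ C ∈ T, F A C ^ 2 - ∑ A ∈ S, r A * ∑ C ∈ T, F A C := by
  have h1 : ∑ A ∈ S, ∑ C ∈ T, F A C ^ 2 - ∑ A ∈ S, r A * ∑ C ∈ T, F A C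
      = ∑ A ∈ S, ∑ C ∈ T, (F A C - r A) ^ 2 := by
    rw [← Finset.sum_sub_distrib]
    refine Finset.sum_congr rfl fun A hA => ?_
    rw [sum_sq_eq_card_mul_sq_add T (fun C => F A C) (r A) (hr A hA), ← hr A hA]
    ring
  rw [h1, Finset.sum_comm, Finset.mul_sum]
  refine Finset.sum_le_sum fun C hC => ?_
  refine card_mul_sq_le_sum_sq S (fun A => F A C - r A) (ν C) ?_
  rw [hν C hC, Finset.sum_sub_distrib]

/-- **(E2a) product fibre**: on a rectangle, the residuals with respect to the column means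
and the row means have nonnegative inner product. -/
theorem rect_nonneg (S : Finset α) (T : Finset γ) (F : α → γ → ℝ) (k : γ → ℝ) (r : α → ℝ)
    (hk : ∀ C ∈ T, (S.card : ℝ) * k C = ∑ A ∈ S, F A C)
    (hr : ∀ A ∈ S, (T.card : ℝ) * r A = ∑ C ∈ T, F A C) :
    0 ≤ ∑ A ∈ S, ∑ C ∈ T, (F A C - k C) * (F A C - r A) := by
  rcases S.eq_empty_or_nonempty with hS | hS
  · subst hS; simp
  rcases T.eq_empty_or_nonempty with hT | hT
  · subst hT; simp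
  have ha : (0 : ℝ) < S.card := by exact_mod_cast hS.card_pos
  have hc : (0 : ℝ) < T.card := by exact_mod_cast hT.card_pos
  set ρ : ℝ := ∑ A ∈ S, r A with hρ
  -- centred column means
  have hν : ∀ C ∈ T, (S.card : ℝ) * (k C - ρ / S.card) = ∑ A ∈ S, F A C - ∑ A ∈ S, r A := by
    intro C hC
    rw [mul_sub, hk C hC, mul_div_cancel₀ _ ha.ne']
  have hlow := rowcentred_lower S T F r (fun C => k C - ρ / S.card) hr hν
  rw [sum_resid_mul]
  -- totals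
  have htot1 : (S.card : ℝ) * ∑ C ∈ T, k C = ∑ C ∈ T, ∑ A ∈ S, F A C := by
    rw [Finset.mul_sum]; exact Finset.sum_congr rfl hk
  have htot2 : (T.card : ℝ) * ρ = ∑ C ∈ T, ∑ A ∈ S, F A C := by
    rw [hρ, Finset.mul_sum, Finset.sum_comm]; exact Finset.sum_congr rfl hr
  have hkk : ∑ C ∈ T, k C * ∑ A ∈ S, F A C = (S.card : ℝ) * ∑ C ∈ T, k C ^ 2 := by
    rw [Finset.mul_sum]
    refine Finset.sum_congr rfl fun C hC => ?_
    rw [← hk C hC]; ring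
  have hexp : ∑ C ∈ T, (k C - ρ / S.card) ^ 2
      = ∑ C ∈ T, k C ^ 2 - 2 * (ρ / S.card) * ∑ C ∈ T, k C + (T.card : ℝ) * (ρ / S.card) ^ 2 := by
    calc ∑ C ∈ T, (k C - ρ / S.card) ^ 2
        = ∑ C ∈ T, (k C ^ 2 - 2 * (ρ / S.card) * k C + (ρ / S.card) ^ 2) :=
          Finset.sum_congr rfl fun C _ => by ring
      _ = _ := by
          rw [Finset.sum_add_distrib, Finset.sum_sub_distrib, ← Finset.mul_sum,
            Finset.sum_const, nsmul_eq_mul]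
  rw [hexp] at hlow
  rw [hkk]
  -- `a * Σk = c * ρ`
  have hrel : (S.card : ℝ) * ∑ C ∈ T, k C = (T.card : ℝ) * ρ := by rw [htot1, htot2]
  have e1 : (S.card : ℝ) * (2 * (ρ / S.card) * ∑ C ∈ T, k C) = 2 * ρ * ∑ C ∈ T, k C := by
    field_simp
  have e2 : (S.card : ℝ) * ((T.card : ℝ) * (ρ / S.card) ^ 2) = ρ * ∑ C ∈ T, k C := by
    have : (T.card : ℝ) * ρ / S.card = ∑ C ∈ T, k C := by
      rw [← hrel]; field_simp
    rw [← this]; field_simp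
  nlinarith [hlow, e1, e2]

end Rect

section Algebra

/-- The per-column (and, mirrored, per-row) quadratic inequality of the marginal form. -/
lemma col_ineq (a0 a1 N : ℝ) (hN : N = 2 * a1 + a0) (ha1 : 0 < a1) (ha0 : 0 ≤ a0)
    (PC VC q ξ ν Pq Vq qb : ℝ) (hq : N * q = PC + VC) (hξ : a1 * ξ = PC - Pq)
    (hν : a0 * ν = VC - Vq) (hqb : N * qb = Pq + Vq) :
    (-2 * N * qb ^ 2 + (a0 * qb - Vq) ^ 2 / (2 * a1))
        + ((-4 * N * qb + (a0 * qb - Vq) * a0 / a1) / N) * (PC - Pq)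
        + ((-4 * N * qb + (a0 * qb - Vq) * a0 / a1) / N - (a0 * qb - Vq) / a1) * (VC - Vq)
      ≤ a1 * ξ ^ 2 + 2 * a0 * ν ^ 2 - 2 * (q * PC) - 2 * (q * VC)
          + (PC - 2 * a1 * q) ^ 2 / (2 * a1) := by
  have hNpos : 0 < N := by rw [hN]; linarith
  have hPC : PC = a1 * ξ + Pq := by linarith
  have hVC : VC = a0 * ν + Vq := by linarith
  have hPq : Pq = N * qb - Vq := by linarith
  have hq' : q = (PC + VC) / N := by
    rw [eq_div_iff hNpos.ne']; linarith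
  have key : a1 * ξ ^ 2 + 2 * a0 * ν ^ 2 - 2 * (q * PC) - 2 * (q * VC)
          + (PC - 2 * a1 * q) ^ 2 / (2 * a1)
        - ((-2 * N * qb ^ 2 + (a0 * qb - Vq) ^ 2 / (2 * a1))
        + ((-4 * N * qb + (a0 * qb - Vq) * a0 / a1) / N) * (PC - Pq)
        + ((-4 * N * qb + (a0 * qb - Vq) * a0 / a1) / N - (a0 * qb - Vq) / a1) * (VC - Vq))
      = 2 * a0 * a1 * (4 * a1 + 3 * a0) / N ^ 2 * (ξ / 2 - ν) ^ 2 := by
    rw [hq', hPC, hVC, hPq, hN]
    have h2 : (2 * a1 + a0) ≠ 0 := by rw [← hN]; exact hNpos.ne'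
    field_simp
    ring
  have hpos : 0 ≤ 2 * a0 * a1 * (4 * a1 + 3 * a0) / N ^ 2 * (ξ / 2 - ν) ^ 2 := by positivity
  linarith

/-- The constant term of the marginal form is a square. -/
lemma const_nonneg (a0 a1 c0 c1 N N' : ℝ) (hN : N = 2 * a1 + a0) (hN' : N' = 2 * c1 + c0)
    (ha1 : 0 < a1) (hc1 : 0 < c1) (_ha0 : 0 ≤ a0) (_hc0 : 0 ≤ c0)
    (P Pq Pq' Vq Hq qb qb' : ℝ) (hPq : c1 * Pq = P) (hPq' : a1 * Pq' = P)
    (hqb : N * qb = Pq + Vq) (hqb' : N' * qb' = Pq' + Hq) :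
    0 ≤ c1 * (-2 * N * qb ^ 2 + (a0 * qb - Vq) ^ 2 / (2 * a1))
        + a1 * (-2 * N' * qb' ^ 2 + (c0 * qb' - Hq) ^ 2 / (2 * c1))
        + a1 * Pq' ^ 2 / c1 + 4 * (c1 * qb) * (a1 * qb') + 2 * (c1 * qb) * Vq
        + 2 * Hq * (a1 * qb') := by
  have hPq1 : Pq = P / c1 := by rw [eq_div_iff hc1.ne']; linarith
  have hPq2 : Pq' = P / a1 := by rw [eq_div_iff ha1.ne']; linarith
  have hVq : Vq = N * qb - Pq := by linarith
  have hHq : Hq = N' * qb' - Pq' := by linarith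
  have key : c1 * (-2 * N * qb ^ 2 + (a0 * qb - Vq) ^ 2 / (2 * a1))
        + a1 * (-2 * N' * qb' ^ 2 + (c0 * qb' - Hq) ^ 2 / (2 * c1))
        + a1 * Pq' ^ 2 / c1 + 4 * (c1 * qb) * (a1 * qb') + 2 * (c1 * qb) * Vq
        + 2 * Hq * (a1 * qb')
      = 2 * a1 * c1 * (P / (a1 * c1) - qb - qb') ^ 2 := by
    rw [hVq, hHq, hPq1, hPq2, hN, hN']
    field_simp
    ring
  rw [key]
  positivity

end Algebra

section Marginal

variable {α1 γ1 : Type*}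

/-- The marginal form of the diamond inequality: after the within-block sums of squares have
been bounded below, what remains is a quadratic form in the column data `(PC, VC)` over `C1`
and the row data `(PA, HA)` over `A1`, which is a sum of squares. -/
lemma diamond_marginal (A1 : Finset α1) (C1 : Finset γ1) (a0 c0 : ℝ) (ha0 : 0 ≤ a0)
    (hc0 : 0 ≤ c0) (hA1 : A1.Nonempty) (hC1 : C1.Nonempty)
    (PC VC qC ξ ν : γ1 → ℝ) (PA HA qA ξ' ν' : α1 → ℝ) (P Pq Pq' Vq Hq : ℝ)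
    (hqC : ∀ C ∈ C1, (2 * (A1.card : ℝ) + a0) * qC C = PC C + VC C)
    (hξ : ∀ C ∈ C1, (A1.card : ℝ) * ξ C = PC C - Pq)
    (hν : ∀ C ∈ C1, a0 * ν C = VC C - Vq)
    (hqA : ∀ A ∈ A1, (2 * (C1.card : ℝ) + c0) * qA A = PA A + HA A)
    (hξ' : ∀ A ∈ A1, (C1.card : ℝ) * ξ' A = PA A - Pq')
    (hν' : ∀ A ∈ A1, c0 * ν' A = HA A - Hq)
    (hPC : ∑ C ∈ C1, PC C = P) (hPA : ∑ A ∈ A1, PA A = P)
    (hPq : (C1.card : ℝ) * Pq = P) (hPq' : (A1.card : ℝ) * Pq' = P)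
    (hVC : ∑ C ∈ C1, VC C = (C1.card : ℝ) * Vq) (hHA : ∑ A ∈ A1, HA A = (A1.card : ℝ) * Hq) :
    0 ≤ ((A1.card : ℝ) * ∑ C ∈ C1, ξ C ^ 2 + 2 * a0 * ∑ C ∈ C1, ν C ^ 2
          - 2 * ∑ C ∈ C1, qC C * PC C - 2 * ∑ C ∈ C1, qC C * VC C
          + ∑ C ∈ C1, (PC C - 2 * (A1.card : ℝ) * qC C) ^ 2 / (2 * (A1.card : ℝ)))
        + ((C1.card : ℝ) * ∑ A ∈ A1, ξ' A ^ 2 + 2 * c0 * ∑ A ∈ A1, ν' A ^ 2
          - 2 * ∑ A ∈ A1, qA A * PA A - 2 * ∑ A ∈ A1, qA A * HA A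
          + ∑ A ∈ A1, (PA A - 2 * (C1.card : ℝ) * qA A) ^ 2 / (2 * (C1.card : ℝ)))
        + (A1.card : ℝ) * Pq' ^ 2 / (C1.card : ℝ) + 4 * ((∑ C ∈ C1, qC C) * ∑ A ∈ A1, qA A)
        + 2 * ((∑ C ∈ C1, qC C) * Vq) + 2 * (Hq * ∑ A ∈ A1, qA A) := by
  have ha1 : (0 : ℝ) < A1.card := by exact_mod_cast hA1.card_pos
  have hc1 : (0 : ℝ) < C1.card := by exact_mod_cast hC1.card_pos
  obtain ⟨a1, ha1d⟩ : ∃ a1 : ℝ, a1 = (A1.card : ℝ) := ⟨_, rfl⟩
  obtain ⟨c1, hc1d⟩ : ∃ c1 : ℝ, c1 = (C1.card : ℝ) := ⟨_, rfl⟩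
  rw [← ha1d] at ha1 hqC hξ hPq' hHA
  rw [← hc1d] at hc1 hqA hξ' hPq hVC
  rw [← ha1d, ← hc1d]
  have hNpos : 0 < 2 * a1 + a0 := by linarith
  have hN'pos : 0 < 2 * c1 + c0 := by linarith
  obtain ⟨qb, hqb⟩ : ∃ qb : ℝ, (2 * a1 + a0) * qb = Pq + Vq :=
    ⟨(Pq + Vq) / (2 * a1 + a0), by field_simp⟩
  obtain ⟨qb', hqb'⟩ : ∃ qb' : ℝ, (2 * c1 + c0) * qb' = Pq' + Hq :=
    ⟨(Pq' + Hq) / (2 * c1 + c0), by field_simp⟩
  -- sums of the class means
  have hSqC : ∑ C ∈ C1, qC C = c1 * qb := by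
    have h1 : (2 * a1 + a0) * ∑ C ∈ C1, qC C = (2 * a1 + a0) * (c1 * qb) := by
      rw [Finset.mul_sum, Finset.sum_congr rfl hqC, Finset.sum_add_distrib, hPC, hVC]
      have : (2 * a1 + a0) * (c1 * qb) = c1 * ((2 * a1 + a0) * qb) := by ring
      rw [this, hqb, ← hPq]; ring
    exact mul_left_cancel₀ hNpos.ne' h1
  have hSqA : ∑ A ∈ A1, qA A = a1 * qb' := by
    have h1 : (2 * c1 + c0) * ∑ A ∈ A1, qA A = (2 * c1 + c0) * (a1 * qb') := by
      rw [Finset.mul_sum, Finset.sum_congr rfl hqA, Finset.sum_add_distrib, hPA, hHA]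
      have : (2 * c1 + c0) * (a1 * qb') = a1 * ((2 * c1 + c0) * qb') := by ring
      rw [this, hqb', ← hPq']; ring
    exact mul_left_cancel₀ hN'pos.ne' h1
  -- columns
  have hcol := Finset.sum_le_sum (fun C hC =>
    col_ineq a0 a1 (2 * a1 + a0) rfl ha1 ha0 (PC C) (VC C) (qC C) (ξ C) (ν C) Pq Vq qb
      (hqC C hC) (hξ C hC) (hν C hC) hqb)
  have eL : ∑ C ∈ C1, ((-2 * (2 * a1 + a0) * qb ^ 2 + (a0 * qb - Vq) ^ 2 / (2 * a1))
        + ((-4 * (2 * a1 + a0) * qb + (a0 * qb - Vq) * a0 / a1) / (2 * a1 + a0)) * (PC C - Pq)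
        + ((-4 * (2 * a1 + a0) * qb + (a0 * qb - Vq) * a0 / a1) / (2 * a1 + a0)
            - (a0 * qb - Vq) / a1) * (VC C - Vq))
      = c1 * (-2 * (2 * a1 + a0) * qb ^ 2 + (a0 * qb - Vq) ^ 2 / (2 * a1)) := by
    rw [Finset.sum_add_distrib, Finset.sum_add_distrib, ← Finset.mul_sum, ← Finset.mul_sum,
      Finset.sum_sub_distrib, Finset.sum_sub_distrib, hPC, hVC, Finset.sum_const,
      Finset.sum_const, Finset.sum_const, nsmul_eq_mul, nsmul_eq_mul, nsmul_eq_mul,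
      ← hc1d, hPq]
    ring
  have eR : ∑ C ∈ C1, (a1 * ξ C ^ 2 + 2 * a0 * ν C ^ 2 - 2 * (qC C * PC C) - 2 * (qC C * VC C)
          + (PC C - 2 * a1 * qC C) ^ 2 / (2 * a1))
      = a1 * ∑ C ∈ C1, ξ C ^ 2 + 2 * a0 * ∑ C ∈ C1, ν C ^ 2
          - 2 * ∑ C ∈ C1, qC C * PC C - 2 * ∑ C ∈ C1, qC C * VC C
          + ∑ C ∈ C1, (PC C - 2 * a1 * qC C) ^ 2 / (2 * a1) := by
    rw [Finset.sum_add_distrib, Finset.sum_sub_distrib, Finset.sum_sub_distrib,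
      Finset.sum_add_distrib, ← Finset.mul_sum, ← Finset.mul_sum, ← Finset.mul_sum,
      ← Finset.mul_sum]
  rw [eL, eR] at hcol
  -- rows
  have hrow := Finset.sum_le_sum (fun A hA =>
    col_ineq c0 c1 (2 * c1 + c0) rfl hc1 hc0 (PA A) (HA A) (qA A) (ξ' A) (ν' A) Pq' Hq qb'
      (hqA A hA) (hξ' A hA) (hν' A hA) hqb')
  have eL' : ∑ A ∈ A1, ((-2 * (2 * c1 + c0) * qb' ^ 2 + (c0 * qb' - Hq) ^ 2 / (2 * c1))
        + ((-4 * (2 * c1 + c0) * qb' + (c0 * qb' - Hq) * c0 / c1) / (2 * c1 + c0)) * (PA A - Pq')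
        + ((-4 * (2 * c1 + c0) * qb' + (c0 * qb' - Hq) * c0 / c1) / (2 * c1 + c0)
            - (c0 * qb' - Hq) / c1) * (HA A - Hq))
      = a1 * (-2 * (2 * c1 + c0) * qb' ^ 2 + (c0 * qb' - Hq) ^ 2 / (2 * c1)) := by
    rw [Finset.sum_add_distrib, Finset.sum_add_distrib, ← Finset.mul_sum, ← Finset.mul_sum,
      Finset.sum_sub_distrib, Finset.sum_sub_distrib, hPA, hHA, Finset.sum_const,
      Finset.sum_const, Finset.sum_const, nsmul_eq_mul, nsmul_eq_mul, nsmul_eq_mul,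
      ← ha1d, hPq']
    ring
  have eR' : ∑ A ∈ A1, (c1 * ξ' A ^ 2 + 2 * c0 * ν' A ^ 2 - 2 * (qA A * PA A)
          - 2 * (qA A * HA A) + (PA A - 2 * c1 * qA A) ^ 2 / (2 * c1))
      = c1 * ∑ A ∈ A1, ξ' A ^ 2 + 2 * c0 * ∑ A ∈ A1, ν' A ^ 2
          - 2 * ∑ A ∈ A1, qA A * PA A - 2 * ∑ A ∈ A1, qA A * HA A
          + ∑ A ∈ A1, (PA A - 2 * c1 * qA A) ^ 2 / (2 * c1) := by
    rw [Finset.sum_add_distrib, Finset.sum_sub_distrib, Finset.sum_sub_distrib,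
      Finset.sum_add_distrib, ← Finset.mul_sum, ← Finset.mul_sum, ← Finset.mul_sum,
      ← Finset.mul_sum]
  rw [eL', eR'] at hrow
  have hconst := const_nonneg a0 a1 c0 c1 (2 * a1 + a0) (2 * c1 + c0) rfl rfl ha1 hc1 ha0 hc0
    P Pq Pq' Vq Hq qb qb' hPq hPq' hqb hqb'
  rw [hSqC, hSqA]
  linarith

end Marginal

section Core

variable {α0 α1 γ0 γ1 : Type*}

/-- `|S| * (x / |S|) = x` as soon as `x` vanishes for empty `S`. -/
lemma card_mul_div_card {ι : Type*} (S : Finset ι) (x : ℝ) (hx : S = ∅ → x = 0) :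
    (S.card : ℝ) * (x / S.card) = x := by
  rcases S.eq_empty_or_nonempty with h | h
  · rw [hx h]; simp
  · have : (S.card : ℝ) ≠ 0 := by exact_mod_cast h.card_pos.ne'
    field_simp

/-- Expansion of the centre block for the two centre copies `p`, `m`. -/
lemma sum_resid_mul2 (S : Finset α1) (T : Finset γ1) (p m : α1 → γ1 → ℝ) (k : γ1 → ℝ)
    (r : α1 → ℝ) :
    ∑ A ∈ S, ∑ C ∈ T, ((p A C - k C) * (p A C - r A) + (m A C - k C) * (m A C - r A))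
      = (∑ A ∈ S, ∑ C ∈ T, (p A C + m A C) ^ 2 + ∑ A ∈ S, ∑ C ∈ T, (p A C - m A C) ^ 2) / 2
        - ∑ C ∈ T, k C * ∑ A ∈ S, (p A C + m A C)
        - ∑ A ∈ S, r A * ∑ C ∈ T, (p A C + m A C)
        + 2 * ((∑ C ∈ T, k C) * ∑ A ∈ S, r A) := by
  have e1 : ∑ A ∈ S, ∑ C ∈ T, ((p A C - k C) * (p A C - r A) + (m A C - k C) * (m A C - r A))
      = ∑ A ∈ S, ∑ C ∈ T, (p A C - k C) * (p A C - r A)
        + ∑ A ∈ S, ∑ C ∈ T, (m A C - k C) * (m A C - r A) := by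
    rw [← Finset.sum_add_distrib]
    exact Finset.sum_congr rfl fun A _ => Finset.sum_add_distrib
  have e2 : ∑ A ∈ S, ∑ C ∈ T, (p A C + m A C) ^ 2 + ∑ A ∈ S, ∑ C ∈ T, (p A C - m A C) ^ 2
      = 2 * (∑ A ∈ S, ∑ C ∈ T, p A C ^ 2 + ∑ A ∈ S, ∑ C ∈ T, m A C ^ 2) := by
    rw [← Finset.sum_add_distrib, ← Finset.sum_add_distrib, Finset.mul_sum]
    refine Finset.sum_congr rfl fun A _ => ?_
    rw [← Finset.sum_add_distrib, ← Finset.sum_add_distrib, Finset.mul_sum]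
    exact Finset.sum_congr rfl fun C _ => by ring
  have e3 : ∑ C ∈ T, k C * ∑ A ∈ S, (p A C + m A C)
      = ∑ C ∈ T, k C * ∑ A ∈ S, p A C + ∑ C ∈ T, k C * ∑ A ∈ S, m A C := by
    rw [← Finset.sum_add_distrib]
    exact Finset.sum_congr rfl fun C _ => by rw [Finset.sum_add_distrib, mul_add]
  have e4 : ∑ A ∈ S, r A * ∑ C ∈ T, (p A C + m A C)
      = ∑ A ∈ S, r A * ∑ C ∈ T, p A C + ∑ A ∈ S, r A * ∑ C ∈ T, m A C := by
    rw [← Finset.sum_add_distrib]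
    exact Finset.sum_congr rfl fun A _ => by rw [Finset.sum_add_distrib, mul_add]
  rw [e1, sum_resid_mul, sum_resid_mul, e2, e3, e4]
  ring

/-- **(E2b) diamond fibre** on the concrete diamond `(A1 × C1 × Bool) ⊔ (A0 × C1) ⊔ (A1 × C0)`.

`p, m` are the values at the two centre states over `(A, C) ∈ A1 × C1`, `v` the values on
`A0 × C1`, `h` the values on `A1 × C0`.  `qC C` is the mean over the class of `C ∈ C1`
(all states with second coordinate `C`), `qA A` the mean over the class of `A ∈ A1`,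
`qv A` the mean over the class of `A ∈ A0` (a row of `v`), `qh C` the mean over the class of
`C ∈ C0` (a column of `h`); they enter only through `card * mean = sum`. -/
theorem diamond_core (A0 : Finset α0) (A1 : Finset α1) (C0 : Finset γ0) (C1 : Finset γ1)
    (p m : α1 → γ1 → ℝ) (v : α0 → γ1 → ℝ) (h : α1 → γ0 → ℝ)
    (qC : γ1 → ℝ) (qA : α1 → ℝ) (qv : α0 → ℝ) (qh : γ0 → ℝ)
    (hqC : ∀ C ∈ C1, (2 * (A1.card : ℝ) + A0.card) * qC C
        = ∑ A ∈ A1, (p A C + m A C) + ∑ A ∈ A0, v A C)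
    (hqA : ∀ A ∈ A1, (2 * (C1.card : ℝ) + C0.card) * qA A
        = ∑ C ∈ C1, (p A C + m A C) + ∑ C ∈ C0, h A C)
    (hqv : ∀ A ∈ A0, (C1.card : ℝ) * qv A = ∑ C ∈ C1, v A C)
    (hqh : ∀ C ∈ C0, (A1.card : ℝ) * qh C = ∑ A ∈ A1, h A C) :
    ∑ A ∈ A1, ∑ C ∈ C1, (p A C - m A C) ^ 2
        - ∑ C ∈ C1, (∑ A ∈ A1, (p A C + m A C) - 2 * (A1.card : ℝ) * qC C) ^ 2
            / (2 * (A1.card : ℝ))
        - ∑ A ∈ A1, (∑ C ∈ C1, (p A C + m A C) - 2 * (C1.card : ℝ) * qA A) ^ 2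
            / (2 * (C1.card : ℝ))
      ≤ 2 * (∑ A ∈ A1, ∑ C ∈ C1,
              ((p A C - qC C) * (p A C - qA A) + (m A C - qC C) * (m A C - qA A))
            + ∑ A ∈ A0, ∑ C ∈ C1, (v A C - qC C) * (v A C - qv A)
            + ∑ A ∈ A1, ∑ C ∈ C0, (h A C - qh C) * (h A C - qA A)) := by
  rcases A1.eq_empty_or_nonempty with hA1 | hA1
  · subst hA1
    have hk : ∀ C ∈ C1, (A0.card : ℝ) * qC C = ∑ A ∈ A0, v A C := by
      intro C hC
      have := hqC C hC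
      simpa using this
    have hnn := rect_nonneg A0 C1 v qC qv hk hqv
    simp only [Finset.sum_empty, Finset.card_empty, Nat.cast_zero, mul_zero, zero_mul,
      sub_zero, div_zero, Finset.sum_const_zero, zero_add, add_zero]
    linarith
  rcases C1.eq_empty_or_nonempty with hC1 | hC1
  · subst hC1
    have hr : ∀ A ∈ A1, (C0.card : ℝ) * qA A = ∑ C ∈ C0, h A C := by
      intro A hA
      have := hqA A hA
      simpa using this
    have hnn := rect_nonneg A1 C0 h qh qA hqh hr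
    simp only [Finset.sum_empty, Finset.card_empty, Nat.cast_zero, mul_zero, zero_mul,
      sub_zero, div_zero, Finset.sum_const_zero, zero_add, add_zero]
    linarith
  -- main case
  have ha1 : (0 : ℝ) < A1.card := by exact_mod_cast hA1.card_pos
  have hc1 : (0 : ℝ) < C1.card := by exact_mod_cast hC1.card_pos
  have ha0 : (0 : ℝ) ≤ A0.card := Nat.cast_nonneg _
  have hc0 : (0 : ℝ) ≤ C0.card := Nat.cast_nonneg _
  -- totals
  obtain ⟨P, hP⟩ : ∃ P : ℝ, P = ∑ C ∈ C1, ∑ A ∈ A1, (p A C + m A C) := ⟨_, rfl⟩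
  have hP' : ∑ A ∈ A1, ∑ C ∈ C1, (p A C + m A C) = P := by rw [hP, Finset.sum_comm]
  obtain ⟨Vq, hVq⟩ : ∃ Vq : ℝ, Vq = ∑ A ∈ A0, qv A := ⟨_, rfl⟩
  obtain ⟨Hq, hHq⟩ : ∃ Hq : ℝ, Hq = ∑ C ∈ C0, qh C := ⟨_, rfl⟩
  have hVtot : ∑ C ∈ C1, ∑ A ∈ A0, v A C = (C1.card : ℝ) * Vq := by
    rw [Finset.sum_comm, hVq, Finset.mul_sum]
    exact Finset.sum_congr rfl fun A hA => (hqv A hA).symm
  have hHtot : ∑ A ∈ A1, ∑ C ∈ C0, h A C = (A1.card : ℝ) * Hq := by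
    rw [Finset.sum_comm, hHq, Finset.mul_sum]
    exact Finset.sum_congr rfl fun C hC => (hqh C hC).symm
  -- the marginal inequality
  have hM := diamond_marginal A1 C1 (A0.card : ℝ) (C0.card : ℝ) ha0 hc0 hA1 hC1
    (fun C => ∑ A ∈ A1, (p A C + m A C)) (fun C => ∑ A ∈ A0, v A C) qC
    (fun C => (∑ A ∈ A1, (p A C + m A C) - P / C1.card) / A1.card)
    (fun C => (∑ A ∈ A0, v A C - Vq) / A0.card)
    (fun A => ∑ C ∈ C1, (p A C + m A C)) (fun A => ∑ C ∈ C0, h A C) qA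
    (fun A => (∑ C ∈ C1, (p A C + m A C) - P / A1.card) / C1.card)
    (fun A => (∑ C ∈ C0, h A C - Hq) / C0.card)
    P (P / C1.card) (P / A1.card) Vq Hq hqC
    (fun C _ => mul_div_cancel₀ _ ha1.ne')
    (fun C _ => card_mul_div_card A0 _ (fun h0 => by rw [hVq, h0]; simp))
    hqA
    (fun A _ => mul_div_cancel₀ _ hc1.ne')
    (fun A _ => card_mul_div_card C0 _ (fun h0 => by rw [hHq, h0]; simp))
    hP.symm hP' (mul_div_cancel₀ _ hc1.ne') (mul_div_cancel₀ _ ha1.ne') hVtot hHtot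
  beta_reduce at hM
  -- block expansions
  have hcen := sum_resid_mul2 A1 C1 p m qC qA
  have hV := sum_resid_mul A0 C1 v qC qv
  have hH := sum_resid_mul A1 C0 h qh qA
  rw [← hVq] at hV
  rw [← hHq] at hH
  -- lower bounds for the sums of squares
  have LBv := rowcentred_lower A0 C1 v qv (fun C => (∑ A ∈ A0, v A C - Vq) / A0.card) hqv
    (fun C _ => by
      rw [← hVq]
      exact card_mul_div_card A0 _ (fun h0 => by rw [hVq, h0]; simp))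
  have LBh := rowcentred_lower C0 A1 (fun C A => h A C) qh
    (fun A => (∑ C ∈ C0, h A C - Hq) / C0.card) hqh
    (fun A _ => by
      rw [← hHq]
      exact card_mul_div_card C0 _ (fun h0 => by rw [hHq, h0]; simp))
  beta_reduce at LBv LBh
  rw [Finset.sum_comm (s := C0) (t := A1)] at LBh
  have hρsum : ∑ A ∈ A1, (∑ C ∈ C1, (p A C + m A C)) / (C1.card : ℝ) = P / C1.card := by
    rw [← Finset.sum_div, hP']
  have LBc := rowcentred_lower A1 C1 (fun A C => p A C + m A C)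
    (fun A => (∑ C ∈ C1, (p A C + m A C)) / C1.card)
    (fun C => (∑ A ∈ A1, (p A C + m A C) - P / C1.card) / A1.card)
    (fun A _ => mul_div_cancel₀ _ hc1.ne')
    (fun C _ => by
      rw [hρsum]
      exact mul_div_cancel₀ _ ha1.ne')
  beta_reduce at LBc
  -- `∑ ρ_A P_A = c1 ∑ ξ'_A² + a1 Pq'² / c1`
  have hρ : ∑ A ∈ A1, (∑ C ∈ C1, (p A C + m A C)) / (C1.card : ℝ) * ∑ C ∈ C1, (p A C + m A C)
      = (C1.card : ℝ) * ∑ A ∈ A1, ((∑ C ∈ C1, (p A C + m A C) - P / A1.card) / C1.card) ^ 2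
        + (A1.card : ℝ) * (P / A1.card) ^ 2 / C1.card := by
    have hpt : ∀ A ∈ A1, (∑ C ∈ C1, (p A C + m A C)) / (C1.card : ℝ) * ∑ C ∈ C1, (p A C + m A C)
        = (C1.card : ℝ) * ((∑ C ∈ C1, (p A C + m A C) - P / A1.card) / C1.card) ^ 2
          + 2 * (P / A1.card) / C1.card * (∑ C ∈ C1, (p A C + m A C) - P / A1.card)
          + (P / A1.card) ^ 2 / C1.card := by
      intro A _
      field_simp
      ring
    rw [Finset.sum_congr rfl hpt, Finset.sum_add_distrib, Finset.sum_add_distrib,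
      ← Finset.mul_sum, ← Finset.mul_sum, Finset.sum_sub_distrib, hP', Finset.sum_const,
      Finset.sum_const, nsmul_eq_mul, nsmul_eq_mul, mul_div_cancel₀ _ ha1.ne']
    ring
  rw [hρ] at LBc
  rw [hcen, hV, hH]
  linarith

end Core

end Crest.Agent.Helper51.S0453
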